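import Mathlib

namespace Vale.Agent.Lib.P181

open Nat

theorem mc_rec (x k : ℕ) : (k + 1) * multichoose x (k + 1) = (x + k) * multichoose x k := by
  rw [multichoose_eq, multichoose_eq]
  rcases x with _ | y
  · rcases k with _ | k
    · simp
    · simp
  · have h := Nat.add_one_mul_choose_eq (y + k) k
    have e1 : y + 1 + (k + 1) - 1 = y + k + 1 := by omega
    have e2 : y + 1 + k - 1 = y + k := by omega
    rw [e1, e2]
    have e3 : y + 1 + k = y + k + 1 := by omega
    rw [e3]
    linarith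

theorem mc_ge (m j : ℕ) : m ≤ multichoose m (j + 1) := by
  induction j with
  | zero => simp
  | succ j ih =>
    rcases m with _ | m
    · simp
    · rw [multichoose_succ_succ]
      omega

theorem mc_lower (m j : ℕ) : m * j + 1 ≤ multichoose (m + 1) j := by
  induction j with
  | zero => simp
  | succ j ih =>
    rw [multichoose_succ_succ]
    have := mc_ge m j
    nlinarith

/-- rational version of multichoose -/
noncomputable def M (x k : ℕ) : ℚ := (multichoose x k : ℚ)

theorem M_rec (x k : ℕ) : ((k : ℚ) + 1) * M x (k + 1) = ((x : ℚ) + k) * M x k := by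
  have := mc_rec x k
  unfold M
  exact_mod_cast this

theorem M_pos (m k : ℕ) : 0 < M (m + 1) k := by
  have := mc_lower m k
  unfold M
  have h : 0 < multichoose (m + 1) k := by omega
  exact_mod_cast h

theorem M_lower (m j : ℕ) : (m : ℚ) * j + 1 ≤ M (m + 1) j := by
  have := mc_lower m j
  unfold M
  exact_mod_cast this

/-- consecutive step: `(k+1)(1 - v_k) ≥ k (1 - v_{k+1})`, cleared of denominators -/
theorem consec (m k : ℕ) :
    (k : ℚ) * (1 - ((k : ℚ) + 2) / M (m + 1) (k + 1)) ≤
      ((k : ℚ) + 1) * (1 - ((k : ℚ) + 1) / M (m + 1) k) := by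
  have hu := M_pos m k
  have hu1 := M_pos m (k + 1)
  have hrec := M_rec (m + 1) k
  have hlow := M_lower m (k + 1)
  push_cast at hrec hlow
  set u := M (m + 1) k
  set u1 := M (m + 1) (k + 1)
  have hk : (0 : ℚ) ≤ k := Nat.cast_nonneg k
  have hm : (0 : ℚ) ≤ m := Nat.cast_nonneg m
  rw [← sub_nonneg]
  have : ((k : ℚ) + 1) * (1 - ((k : ℚ) + 1) / u) - (k : ℚ) * (1 - ((k : ℚ) + 2) / u1)
      = (u * u1 - ((k : ℚ) + 1) ^ 2 * u1 + k * (k + 2) * u) / (u * u1) := by
    field_simp
    ring
  rw [this]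
  apply div_nonneg _ (by positivity)
  -- u1 (k+1) = u (m+1+k)
  have h2 : u * u1 - ((k : ℚ) + 1) ^ 2 * u1 + k * (k + 2) * u
      = u * (u1 - ((m : ℚ) * (k + 1) + 1)) := by
    have : ((k : ℚ) + 1) ^ 2 * u1 = (k + 1) * ((m + 1 + k) * u) := by
      rw [← hrec]; ring
    rw [this]; ring
  rw [h2]
  apply mul_nonneg hu.le
  linarith

theorem slope (m a b : ℕ) (ha : 1 ≤ a) (hab : a ≤ b) :
    (a : ℚ) * (1 - ((b : ℚ) + 1) / M (m + 1) b) ≤ (b : ℚ) * (1 - ((a : ℚ) + 1) / M (m + 1) a) := by
  induction b, hab using Nat.le_induction with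
  | base => exact le_refl _
  | succ b hab ih =>
    have hc := consec m b
    push_cast
    have hb : (0 : ℚ) < b := by exact_mod_cast (lt_of_lt_of_le ha hab)
    have ha' : (0 : ℚ) < a := by exact_mod_cast ha
    set va := 1 - ((a : ℚ) + 1) / M (m + 1) a
    set vb := 1 - ((b : ℚ) + 1) / M (m + 1) b
    have e : (b : ℚ) + 1 + 1 = b + 2 := by ring
    rw [e]
    set vb1 := 1 - ((b : ℚ) + 2) / M (m + 1) (b + 1)
    -- b * goal
    have h1 : (b : ℚ) * (a * vb1) ≤ b * ((b + 1) * va) := by
      calc (b : ℚ) * (a * vb1) = a * (b * vb1) := by ring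
        _ ≤ a * ((b + 1) * vb) := by apply mul_le_mul_of_nonneg_left hc ha'.le
        _ = (b + 1) * (a * vb) := by ring
        _ ≤ (b + 1) * (b * va) := by apply mul_le_mul_of_nonneg_left ih (by positivity)
        _ = b * ((b + 1) * va) := by ring
    exact le_of_mul_le_mul_left h1 hb

theorem cross (m a b : ℕ) (ha : 1 ≤ a) (hab : a ≤ b) :
    (M (m + 1) (b + 1) + a) * (M (m + 1) a + b) ≤ (M (m + 1) (a + 1) + b) * (M (m + 1) b + a) := by
  have hs := slope m a b ha hab
  have hua := M_pos m a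
  have hub := M_pos m b
  have hra := M_rec (m + 1) a
  have hrb := M_rec (m + 1) b
  push_cast at hra hrb
  set ua := M (m + 1) a
  set ub := M (m + 1) b
  set ua1 := M (m + 1) (a + 1)
  set ub1 := M (m + 1) (b + 1)
  have ha0 : (0 : ℚ) < (a : ℚ) + 1 := by positivity
  have hb0 : (0 : ℚ) < (b : ℚ) + 1 := by positivity
  have hm : (0 : ℚ) ≤ m := Nat.cast_nonneg m
  -- Q ≥ 0
  have hQ : 0 ≤ ((b : ℚ) - a) * ua * ub + a * (b + 1) * ua - b * (a + 1) * ub := by
    have : ((b : ℚ) - a) * ua * ub + a * (b + 1) * ua - b * (a + 1) * ub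
        = ua * ub * ((b : ℚ) * (1 - ((a : ℚ) + 1) / ua) - (a : ℚ) * (1 - ((b : ℚ) + 1) / ub)) := by
      field_simp
      ring
    rw [this]
    apply mul_nonneg (by positivity)
    linarith
  have hua1 : ua1 = (m + 1 + a) * ua / (a + 1) := by
    field_simp
    linarith
  have hub1 : ub1 = (m + 1 + b) * ub / (b + 1) := by
    field_simp
    linarith
  rw [← sub_nonneg]
  have : (ua1 + b) * (ub + a) - (ub1 + a) * (ua + b)
      = m * (((b : ℚ) - a) * ua * ub + a * (b + 1) * ua - b * (a + 1) * ub) / ((a + 1) * (b + 1)) := by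
    rw [hua1, hub1]
    field_simp
    ring
  rw [this]
  apply div_nonneg (mul_nonneg hm hQ) (by positivity)

/-- `(*)`: `(b+1) φ(u_{b+1}, a) ≤ (u_a + b) φ(u_b, a)` for `1 ≤ a ≤ b`. -/
theorem star (m a b : ℕ) (ha : 1 ≤ a) (hab : a ≤ b) :
    ((b : ℚ) + 1) * M (multichoose (m + 1) (b + 1)) a ≤
      (M (m + 1) a + b) * M (multichoose (m + 1) b) a := by
  induction a, ha using Nat.le_induction with
  | base =>
    have h1 : ∀ x : ℕ, M x 1 = x := by intro x; simp [M]
    rw [h1, h1, h1]
    have hrb := M_rec (m + 1) b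
    push_cast at hrb
    have e1 : ((multichoose (m + 1) (b + 1) : ℕ) : ℚ) = M (m + 1) (b + 1) := rfl
    have e2 : ((multichoose (m + 1) b : ℕ) : ℚ) = M (m + 1) b := rfl
    rw [e1, e2]
    push_cast
    linarith
  | succ a ha ih =>
    have ih' := ih (by omega)
    have hc := cross m a b ha (by omega)
    have r1 := M_rec (multichoose (m + 1) (b + 1)) a
    have r2 := M_rec (multichoose (m + 1) b) a
    have e1 : ((multichoose (m + 1) (b + 1) : ℕ) : ℚ) = M (m + 1) (b + 1) := rfl
    have e2 : ((multichoose (m + 1) b : ℕ) : ℚ) = M (m + 1) b := rfl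
    rw [e1] at r1
    rw [e2] at r2
    set ua := M (m + 1) a
    set ub := M (m + 1) b
    set ua1 := M (m + 1) (a + 1)
    set ub1 := M (m + 1) (b + 1)
    set F1 := M (multichoose (m + 1) (b + 1)) a
    set F1' := M (multichoose (m + 1) (b + 1)) (a + 1)
    set F0 := M (multichoose (m + 1) b) a
    set F0' := M (multichoose (m + 1) b) (a + 1)
    have ha0 : (0 : ℚ) < (a : ℚ) + 1 := by positivity
    have hF0 : 0 ≤ F0 := by simp only [F0, M]; positivity
    have hub1 : 0 < ub1 := M_pos m (b + 1)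
    have hua : 0 < ua := M_pos m a
    have haq : (0 : ℚ) ≤ a := Nat.cast_nonneg a
    have hbq : (0 : ℚ) ≤ b := Nat.cast_nonneg b
    apply le_of_mul_le_mul_left _ ha0
    calc ((a : ℚ) + 1) * (((b : ℚ) + 1) * F1') = ((b : ℚ) + 1) * (((a : ℚ) + 1) * F1') := by ring
      _ = ((b : ℚ) + 1) * ((ub1 + a) * F1) := by rw [r1]
      _ = (ub1 + a) * (((b : ℚ) + 1) * F1) := by ring
      _ ≤ (ub1 + a) * ((ua + b) * F0) := by
          apply mul_le_mul_of_nonneg_left ih' (by positivity)
      _ = ((ub1 + a) * (ua + b)) * F0 := by ring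
      _ ≤ ((ua1 + b) * (ub + a)) * F0 := by
          apply mul_le_mul_of_nonneg_right hc hF0
      _ = (ua1 + b) * ((ub + a) * F0) := by ring
      _ = (ua1 + b) * (((a : ℚ) + 1) * F0') := by rw [r2]
      _ = ((a : ℚ) + 1) * ((ua1 + b) * F0') := by ring

theorem mainQ (m a b : ℕ) (ha : 1 ≤ a) (hab : a ≤ b) :
    M (multichoose (m + 1) b) a ≤ M (multichoose (m + 1) a) b := by
  induction b, hab using Nat.le_induction with
  | base => exact le_refl _
  | succ b hab ih =>
    have hs := star m a b ha hab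
    have r := M_rec (multichoose (m + 1) a) b
    have e1 : ((multichoose (m + 1) a : ℕ) : ℚ) = M (m + 1) a := rfl
    rw [e1] at r
    set ua := M (m + 1) a
    set F1 := M (multichoose (m + 1) (b + 1)) a
    set F0 := M (multichoose (m + 1) b) a
    set G0 := M (multichoose (m + 1) a) b
    set G1 := M (multichoose (m + 1) a) (b + 1)
    have hb0 : (0 : ℚ) < (b : ℚ) + 1 := by positivity
    have hua : 0 < ua := M_pos m a
    have hbq : (0 : ℚ) ≤ b := Nat.cast_nonneg b
    apply le_of_mul_le_mul_left _ hb0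
    calc ((b : ℚ) + 1) * F1 ≤ (ua + b) * F0 := hs
      _ ≤ (ua + b) * G0 := by apply mul_le_mul_of_nonneg_left ih (by positivity)
      _ = ((b : ℚ) + 1) * G1 := by rw [r]

theorem main (n a b : ℕ) (ha : 1 ≤ a) (hab : a ≤ b) :
    multichoose (multichoose n b) a ≤ multichoose (multichoose n a) b := by
  rcases n with _ | m
  · have h1 : multichoose 0 b = 0 := by
      rcases b with _ | b
      · omega
      · simp
    have h2 : multichoose 0 a = 0 := by
      rcases a with _ | a
      · omega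
      · simp
    rw [h1, h2]
    rcases a with _ | a
    · omega
    · simp
  · have := mainQ m a b ha hab
    unfold M at this
    exact_mod_cast this

end Vale.Agent.Lib.P181
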